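import Vale.Agent.P176.Main

/-!
A finite-dimensional algebra with finitely generated modules of finite but unbounded projective
dimension.
-/

theorem Vale.Agent.Results.P176.FindimInfinite.result :
    ∀ (k : Type) [Field k] [CharZero k],
      ∃ (A : Type) (_ : Ring A) (_ : Algebra k A), FiniteDimensional k A ∧
        ∀ n : ℕ, ∃ M : ModuleCat.{0} A, Module.Finite A M ∧
          CategoryTheory.projectiveDimension M ≠ ⊤ ∧
          (n : WithBot ℕ∞) ≤ CategoryTheory.projectiveDimension M := by
  intro k _ _
  exact ⟨Vale.Agent.P176.Gam k, inferInstance, inferInstance, inferInstance,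
    Vale.Agent.P176.main k⟩
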